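import Vale.Agent.P091.CH.H539.Rows

/-!
# TREE LEMMA: the row TG (locally dominated functions on the set of the `x` seeing a large tile)
(helper324)
-/

open Finset

namespace Vale.Agent.P091.CH.H324

open H539 H69

variable {K : ℕ}

/-! ## the distance function -/

theorem rho_le {T : Finset Tile} (h : T.Nonempty) (x : X K) {s : Tile} (hs : s ∈ T) :
    rho T h x ≤ s.len + nrm (x - s.c K) :=
  Finset.inf'_le (fun s : Tile => s.len + nrm (x - s.c K)) hs

theorem exists_rho (T : Finset Tile) (h : T.Nonempty) (x : X K) :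
    ∃ s ∈ T, rho T h x = s.len + nrm (x - s.c K) :=
  Finset.exists_mem_eq_inf' h (fun s : Tile => s.len + nrm (x - s.c K))

theorem rho_lip (T : Finset Tile) (h : T.Nonempty) (x y : X K) :
    rho T h x ≤ rho T h y + nrm (x - y) := by
  obtain ⟨s, hs, e⟩ := exists_rho T h y
  have h1 := rho_le h x hs
  have h2 := nrm_tri x y (s.c K)
  linarith

theorem len_pos (s : Tile) : 0 < s.len := by unfold Tile.len; positivity

theorem rho_pos (T : Finset Tile) (h : T.Nonempty) (x : X K) : 0 < rho T h x := by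
  obtain ⟨s, _, e⟩ := exists_rho T h x
  have := len_pos s
  have := nrm_nonneg (x - s.c K)
  linarith

theorem rho_le_three_half (T : Finset Tile) (h : T.Nonempty) (x : X K) : rho T h x ≤ 3 / 2 := by
  obtain ⟨s, _, e⟩ := exists_rho T h x
  have h1 : s.len ≤ 1 := by
    unfold Tile.len
    exact inv_le_one_of_one_le₀ (one_le_pow₀ (by norm_num))
  have := nrm_le_half (x - s.c K)
  linarith

/-! ## lower bound of the measure of a ball -/

theorem ball_ge (x : X K) {r : ℝ} (h0 : 0 ≤ r) (h1 : r < 1) :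
    r ≤ ave (fun y : X K => if nrm (x - y) ≤ r then (1:ℝ) else 0) := by
  classical
  have hK : (0:ℝ) < 2 ^ K := by positivity
  unfold ave
  rw [le_div_iff₀ hK, Finset.sum_boole]
  set n := ⌊r * 2 ^ K⌋₊ with hn
  have hn1 : r * 2 ^ K < n + 1 := Nat.lt_floor_add_one _
  have hn2 : (n : ℝ) ≤ r * 2 ^ K := Nat.floor_le (by positivity)
  have hn3 : n + 1 ≤ 2 ^ K := by
    have : (n : ℝ) < ((2 ^ K : ℕ) : ℝ) := by
      push_cast
      calc (n : ℝ) ≤ r * 2 ^ K := hn2
        _ < 1 * 2 ^ K := mul_lt_mul_of_pos_right h1 hK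
        _ = _ := one_mul _
    exact_mod_cast this
  have hc : (range (n + 1)).card ≤ (univ.filter (fun y : X K => nrm (x - y) ≤ r)).card := by
    refine Finset.card_le_card_of_injOn (fun i : ℕ => x + ((i : ℕ) : X K)) ?_ ?_
    · intro i hi
      rw [coe_range, Set.mem_Iio] at hi
      rw [mem_coe, mem_filter]
      refine ⟨mem_univ _, ?_⟩
      have e : x - (x + ((i : ℕ) : X K)) = (0 : X K) - ((i : ℕ) : X K) := by ring
      rw [e]
      refine (nrm_sub_natCast_le (0 : X K) i).trans ?_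
      rw [ZMod.val_zero, Nat.cast_zero, zero_sub, abs_neg, abs_of_nonneg (Nat.cast_nonneg _),
        div_le_iff₀ hK]
      have : (i : ℝ) ≤ n := by exact_mod_cast Nat.lt_succ_iff.1 hi
      linarith
    · intro i hi j hj hij
      rw [coe_range, Set.mem_Iio] at hi hj
      have h2 : ((i : ℕ) : X K) = ((j : ℕ) : X K) := add_left_cancel hij
      have h3 := congrArg ZMod.val h2
      rwa [ZMod.val_natCast_of_lt (lt_of_lt_of_le hi hn3),
        ZMod.val_natCast_of_lt (lt_of_lt_of_le hj hn3)] at h3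
  rw [card_range] at hc
  have : ((n + 1 : ℕ) : ℝ) ≤ ((univ.filter (fun y : X K => nrm (x - y) ≤ r)).card : ℝ) := by
    exact_mod_cast hc
  push_cast at this
  linarith

/-! ## integer division -/

/-- `a` between `0` and `m` -/
def Btw (a m : ℤ) : Prop := (0 ≤ a ∧ a ≤ m) ∨ (m ≤ a ∧ a ≤ 0)

theorem Btw.trans {a b m : ℤ} (h1 : Btw a b) (h2 : Btw b m) : Btw a m := by
  unfold Btw at *; omega

theorem btw_div (q m : ℤ) {D : ℤ} (hD : 0 < D) : Btw ((q + m) / D - q / D) m := by
  have key : ∀ q m : ℤ, 0 ≤ m → 0 ≤ (q + m) / D - q / D ∧ (q + m) / D - q / D ≤ m := by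
    intro q m hm
    refine ⟨sub_nonneg.2 (Int.ediv_le_ediv hD (by linarith)), ?_⟩
    have h1 : (q + m) / D ≤ (q + m * D) / D := by
      refine Int.ediv_le_ediv hD ?_
      nlinarith
    rw [Int.add_mul_ediv_right _ _ hD.ne'] at h1
    linarith
  rcases le_total 0 m with hm | hm
  · exact Or.inl (key q m hm)
  · right
    have := key (q + m) (-m) (by linarith)
    rw [add_neg_cancel_right] at this
    constructor <;> linarith [this.1, this.2]

/-! ## the estimate for one point `y` -/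

/-- the smallest cube size: `2^-κ ∈ [r, 2r)` -/
theorem exists_scale {r : ℝ} (h0 : 0 < r) (h1 : r ≤ 1) :
    ∃ κ : ℕ, r ≤ ((2:ℝ) ^ κ)⁻¹ ∧ ((2:ℝ) ^ κ)⁻¹ < 2 * r := by
  obtain ⟨n, hn1, hn2⟩ := exists_nat_pow_near (x := r⁻¹) (y := (2:ℝ))
    ((one_le_inv₀ h0).2 h1) (by norm_num)
  refine ⟨n, ?_, ?_⟩
  · rw [le_inv_comm₀ h0 (by positivity)]; exact hn1
  · rw [pow_succ] at hn2
    rw [inv_lt_comm₀ (by positivity) (by positivity)]
    rw [mul_inv]
    linarith

theorem two_pow_inv_le_iff {a b : ℕ} : ((2:ℝ) ^ a)⁻¹ ≤ ((2:ℝ) ^ b)⁻¹ ↔ b ≤ a := by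
  rw [inv_le_inv₀ (by positivity) (by positivity), pow_le_pow_iff_right₀ (by norm_num)]

/-- the tile used for the mass -/
def um (ξ : ℤ) (s0 : Tile) (κ : ℕ) (a : ℤ) : Tile := ⟨κ, s0.j / 2 ^ (s0.k - κ), ξ / 2 ^ κ + a⟩

theorem dom_um {T : Finset Tile} {kT jT : ℕ} {ξ m : ℤ} (hT : IsOff K T kT jT ξ m)
    {s0 : Tile} (hs0 : s0 ∈ T) {κ : ℕ} (hκ : κ ≤ s0.k) {a : ℤ} (ha : Btw a m) :
    Dom s0 (um ξ s0 κ a) := by
  refine ⟨hκ, rfl, ?_⟩
  simp only [um]
  have e1 := hT.off s0 hs0
  have e2 : ξ / 2 ^ s0.k = (ξ / 2 ^ κ) / 2 ^ (s0.k - κ) := by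
    rw [Int.ediv_ediv_of_nonneg (by positivity), ← pow_add]
    congr 2
    omega
  have h1 := btw_div (ξ / 2 ^ κ) a (D := 2 ^ (s0.k - κ)) (by positivity)
  have h2 := h1.trans ha
  rw [e1, e2]
  have h3 := hT.le
  rw [abs_le] at h3 ⊢
  unfold Btw at h2
  constructor <;> omega

/-- if `x` sees `s` then its frequency at the scale `κ ≥ s.k` is one of the few -/
theorem freq_um {T : Finset Tile} {kT jT : ℕ} {ξ m : ℤ} (hT : IsOff K T kT jT ξ m)
    {s : Tile} (hs : s ∈ T) {κ : ℕ} (hκ : s.k ≤ κ) {n : ℤ} (hn : n / 2 ^ s.k = s.l) :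
    Btw (n / 2 ^ κ - ξ / 2 ^ κ) m := by
  have e : ∀ z : ℤ, z / 2 ^ κ = (z / 2 ^ s.k) / 2 ^ (κ - s.k) := by
    intro z
    rw [Int.ediv_ediv_of_nonneg (by positivity), ← pow_add]
    congr 2
    omega
  rw [e n, e ξ, hn, hT.off s hs]
  exact btw_div _ _ (by positivity)

theorem wt_um {T : Finset Tile} {kT jT : ℕ} {ξ m : ℤ} (hT : IsOff K T kT jT ξ m)
    {s0 : Tile} (hs0 : s0 ∈ T) {κ : ℕ} (hκ : κ ≤ s0.k) (a : ℤ) {x y : X K} {r : ℝ}
    (hr : r ≤ ((2:ℝ) ^ κ)⁻¹) (hy : nrm (y - s0.c K) ≤ r) (hxy : nrm (x - y) ≤ r) :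
    (4:ℝ)⁻¹ ^ 10 ≤ wt (um ξ s0 κ a).k ((um ξ s0 κ a).c K) x := by
  have hok := hT.good.2 s0 hs0
  have hkK : s0.k + 6 ≤ K := hok.1
  have hj : s0.j < 2 ^ s0.k := hok.2.1
  have h2 : (0:ℝ) < 2 ^ κ := by positivity
  -- the left end of the small interval lies in the big interval
  have hc : s0.c K ∈ dy K κ (s0.j / 2 ^ (s0.k - κ)) := by
    refine dy_subset hκ (by omega) ?_
    unfold Tile.c pt
    rw [mem_dy, zero_mul, add_zero]
    have hlt : s0.j * 2 ^ (K - s0.k) < 2 ^ K := by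
      have : 2 ^ K = 2 ^ s0.k * 2 ^ (K - s0.k) := by rw [← pow_add]; congr 1; omega
      rw [this]
      exact Nat.mul_lt_mul_of_pos_right hj (by positivity)
    rw [ZMod.val_natCast_of_lt hlt]
    exact Nat.mul_div_cancel _ (by positivity)
  have hκ3 : κ + 3 ≤ K := by omega
  have h3 : nrm (s0.c K - (um ξ s0 κ a).c K) ≤ ((2:ℝ) ^ κ)⁻¹ :=
    nrm_sub_pt_le (k := κ) (r := 0) hκ3 (by norm_num) hc
  have h4 := nrm_tri x y ((um ξ s0 κ a).c K)
  have h5 := nrm_tri y (s0.c K) ((um ξ s0 κ a).c K)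
  have h6 : nrm (x - (um ξ s0 κ a).c K) ≤ 3 * ((2:ℝ) ^ κ)⁻¹ := by linarith
  unfold wt
  refine pow_le_pow_left₀ (by positivity) ?_ 10
  have hn := nrm_nonneg (x - (um ξ s0 κ a).c K)
  have hk : (um ξ s0 κ a).k = κ := rfl
  rw [hk]
  rw [inv_le_inv₀ (by norm_num) (by positivity)]
  have h7 : 2 ^ κ * nrm (x - (um ξ s0 κ a).c K) ≤ 2 ^ κ * (3 * ((2:ℝ) ^ κ)⁻¹) :=
    mul_le_mul_of_nonneg_left h6 h2.le
  have h8 : (2:ℝ) ^ κ * (3 * ((2:ℝ) ^ κ)⁻¹) = 3 := by field_simp
  linarith

/-- `x` contributes to `y` -/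
def Con (N : X K → ℤ) (E : Finset (X K)) (T : Finset Tile) (h : T.Nonempty) (y x : X K) : Prop :=
  x ∈ E ∧ Sees N T h x ∧ nrm (x - y) ≤ rho T h x / 4

open Classical in
theorem one_point {N : X K → ℤ} {E : Finset (X K)} {T : Finset Tile} (h : T.Nonempty)
    {kT jT : ℕ} {ξ m : ℤ} {μ : ℝ} (hμ : 0 ≤ μ) (hT : IsOff K T kT jT ξ m)
    (hM : MsLe E N T μ) (y : X K) :
    ave (fun x => if Con N E T h y x then 4 / rho T h x else 0) ≤ 230 * 4 ^ 10 * μ := by
  by_cases hex : ∃ x, Con N E T h y x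
  swap
  · have : (fun x => if Con N E T h y x then 4 / rho T h x else 0) = fun _ => 0 := by
      funext x
      rw [if_neg]
      intro hx
      exact hex ⟨x, hx⟩
    rw [this, ave_const]
    positivity
  obtain ⟨x1, hx1⟩ := hex
  set r := rho T h y with hr
  have hr0 : 0 < r := rho_pos T h y
  -- comparison of the radii
  have hcmp : ∀ x, Con N E T h y x → r ≤ 5 / 4 * rho T h x ∧ 3 / 4 * rho T h x ≤ r := by
    intro x hx
    have h1 := rho_lip T h x y
    have h2 := rho_lip T h y x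
    rw [nrm_sub_comm] at h2
    have h3 := hx.2.2
    constructor <;> linarith
  have hone : ∀ s : Tile, s.len ≤ 1 := by
    intro s
    unfold Tile.len
    exact inv_le_one_of_one_le₀ (one_le_pow₀ (by norm_num))
  have hr1 : r ≤ 1 := by
    obtain ⟨s, _, h4, _⟩ := hx1.2.1
    have := (hcmp x1 hx1).1
    have := hone s
    linarith
  obtain ⟨κ, hκ1, hκ2⟩ := exists_scale hr0 hr1
  obtain ⟨s0, hs0, e0⟩ := exists_rho T h y
  rw [← hr] at e0
  have hn0 := nrm_nonneg (y - s0.c K)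
  have hl0 := len_pos s0
  have hκs0 : κ ≤ s0.k := by
    rw [← two_pow_inv_le_iff]
    change s0.len ≤ _
    linarith
  -- the pointwise bound
  have hpt : ∀ x, (if Con N E T h y x then 4 / rho T h x else 0) ≤
      ∑ a ∈ Icc (-11 : ℤ) 11, (5 / r * 4 ^ 10) * (if Btw a m then
        (if x ∈ E ∧ N x / 2 ^ (um ξ s0 κ a).k = (um ξ s0 κ a).l then
          wt (um ξ s0 κ a).k ((um ξ s0 κ a).c K) x else 0) else 0) := by
    intro x
    have hnn : ∀ a ∈ Icc (-11 : ℤ) 11, 0 ≤ (5 / r * 4 ^ 10) * (if Btw a m then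
        (if x ∈ E ∧ N x / 2 ^ (um ξ s0 κ a).k = (um ξ s0 κ a).l then
          wt (um ξ s0 κ a).k ((um ξ s0 κ a).c K) x else 0) else 0) := by
      intro a _
      refine mul_nonneg (by positivity) ?_
      split_ifs
      · unfold wt
        have := nrm_nonneg (x - (um ξ s0 κ a).c K)
        positivity
      · exact le_rfl
      · exact le_rfl
    split_ifs with hx
    swap
    · exact Finset.sum_nonneg hnn
    obtain ⟨s, hs, h4, hNs⟩ := hx.2.1
    have hc1 := (hcmp x hx).1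
    have hc2 := (hcmp x hx).2
    have hρ := rho_pos T h x
    have hsκ : s.k ≤ κ := by
      rw [← two_pow_inv_le_iff]
      change _ ≤ s.len
      linarith
    have hb := freq_um hT hs hsκ hNs
    have hm := hT.le
    rw [abs_le] at hm
    have hmem : (N x / 2 ^ κ - ξ / 2 ^ κ) ∈ Icc (-11 : ℤ) 11 := by
      rw [mem_Icc]
      unfold Btw at hb
      omega
    refine le_trans ?_ (Finset.single_le_sum hnn hmem)
    rw [if_pos hb, if_pos ⟨hx.1, by simp [um]⟩]
    have hw := wt_um hT hs0 hκs0 (N x / 2 ^ κ - ξ / 2 ^ κ) (x := x) (y := y) (r := r) hκ1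
      (by linarith) (by have := hx.2.2; linarith)
    calc 4 / rho T h x ≤ 5 / r := by
          rw [div_le_div_iff₀ hρ hr0]; linarith
      _ = 5 / r * 4 ^ 10 * (4:ℝ)⁻¹ ^ 10 := by
          rw [mul_assoc, ← mul_pow]; norm_num
      _ ≤ _ := mul_le_mul_of_nonneg_left hw (by positivity)
  refine (ave_mono hpt).trans ?_
  rw [ave_sum]
  have hterm : ∀ a ∈ Icc (-11 : ℤ) 11, ave (fun x : X K => (5 / r * 4 ^ 10) * (if Btw a m then
        (if x ∈ E ∧ N x / 2 ^ (um ξ s0 κ a).k = (um ξ s0 κ a).l then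
          wt (um ξ s0 κ a).k ((um ξ s0 κ a).c K) x else 0) else 0)) ≤ 10 * 4 ^ 10 * μ := by
    intro a _
    rw [ave_mul_left]
    by_cases ha : Btw a m
    · simp only [if_pos ha]
      have hd := hM s0 hs0 (um ξ s0 κ a) (dom_um hT hs0 hκs0 ha)
      have hlen : (um ξ s0 κ a).len = ((2:ℝ) ^ κ)⁻¹ := rfl
      rw [hlen] at hd
      have hd2 : dens E N (um ξ s0 κ a) ≤ μ * (2 * r) :=
        hd.trans (mul_le_mul_of_nonneg_left hκ2.le hμ)
      have hd3 : ave (fun x : X K => if x ∈ E ∧ N x / 2 ^ (um ξ s0 κ a).k = (um ξ s0 κ a).l then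
          wt (um ξ s0 κ a).k ((um ξ s0 κ a).c K) x else 0) ≤ μ * (2 * r) := by
        refine le_trans (le_of_eq ?_) hd2
        unfold dens
        congr 1
      calc _ ≤ (5 / r * 4 ^ 10) * (μ * (2 * r)) := mul_le_mul_of_nonneg_left hd3 (by positivity)
        _ = 10 * 4 ^ 10 * μ := by field_simp; ring
    · simp only [if_neg ha]
      rw [ave_const, mul_zero]
      positivity
  refine (Finset.sum_le_sum hterm).trans ?_
  rw [Finset.sum_const, Int.card_Icc, show ((11:ℤ) + 1 - -11).toNat = 23 from rfl]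
  rw [nsmul_eq_mul]
  push_cast
  linarith

open Classical in
/-- the row TG -/
theorem tg : P_TG := by
  refine ⟨230 * 4 ^ 10, by positivity, ?_⟩
  intro K N E T h kT jT ξ m μ hμ hT hM F W hW hF
  -- pointwise bound by a local average
  have hpt : ∀ x, (if x ∈ E ∧ Sees N T h x then F x else 0) ≤
      ave (fun y => W y * (if Con N E T h y x then 4 / rho T h x else 0)) := by
    intro x
    have hρ := rho_pos T h x
    split_ifs with hx
    swap
    · refine ave_nonneg fun y => mul_nonneg (hW y) ?_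
      split_ifs <;> positivity
    by_cases hF0 : F x ≤ 0
    · refine hF0.trans (ave_nonneg fun y => mul_nonneg (hW y) ?_)
      split_ifs <;> positivity
    rw [not_le] at hF0
    have hb := ball_ge x (r := rho T h x / 4) (by positivity)
      (by have := rho_le_three_half T h x; linarith)
    calc F x = (F x * (4 / rho T h x)) * (rho T h x / 4) := by field_simp
      _ ≤ (F x * (4 / rho T h x)) *
          ave (fun y : X K => if nrm (x - y) ≤ rho T h x / 4 then (1:ℝ) else 0) :=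
          mul_le_mul_of_nonneg_left hb (by positivity)
      _ = ave (fun y : X K => (F x * (4 / rho T h x)) *
            (if nrm (x - y) ≤ rho T h x / 4 then (1:ℝ) else 0)) := (ave_mul_left _ _).symm
      _ ≤ _ := by
          refine ave_mono fun y => ?_
          by_cases hy : nrm (x - y) ≤ rho T h x / 4
          · have hcon : Con N E T h y x := ⟨hx.1, hx.2, hy⟩
            rw [if_pos hy, if_pos hcon, mul_one]
            exact mul_le_mul_of_nonneg_right (hF x hx.2 y hy) (by positivity)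
          · rw [if_neg hy, mul_zero]
            refine mul_nonneg (hW y) ?_
            split_ifs <;> positivity
  refine (ave_mono hpt).trans ?_
  have hswap : ave (fun x : X K => ave (fun y : X K => W y * (if Con N E T h y x then
      4 / rho T h x else 0))) =
      ave (fun y : X K => W y * ave (fun x : X K => if Con N E T h y x then
        4 / rho T h x else 0)) := by
    simp only [← ave_mul_left]
    unfold ave
    simp only [Finset.sum_div]
    rw [Finset.sum_comm]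
  rw [hswap, ← ave_mul_left]
  refine ave_mono fun y => ?_
  have := one_point h hμ hT hM y
  nlinarith [mul_le_mul_of_nonneg_left this (hW y)]

end Vale.Agent.P091.CH.H324
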